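import Mathlib
import Vale.Agent.P176.Defs
import Vale.Agent.P176.Main

namespace Vale.Agent.Results.P176.A0_DeloopingBound

universe u

open CategoryTheory Vale.Agent.P176

theorem result {R A : Type u} [CommRing R] [IsArtinianRing R] [Ring A] [Algebra R A]
    [Module.Finite R A] (n : ℕ)
    (h : ∀ S : ModuleCat.{u} Aᵐᵒᵖ, IsSimpleModule Aᵐᵒᵖ S → ∃ j, j ≤ n ∧ DeloopsAt S j)
    (M : ModuleCat.{u} A) (hM : projectiveDimension M ≠ ⊤) :
    projectiveDimension M ≤ n := by
  have h1 : IsArtinianRing A := IsArtinianRing.of_finite R A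
  have h2 : Module.Finite R Aᵐᵒᵖ := Module.Finite.equiv (MulOpposite.opLinearEquiv R)
  have h3 : IsArtinianRing Aᵐᵒᵖ := IsArtinianRing.of_finite R Aᵐᵒᵖ
  obtain ⟨d, hd⟩ := (projectiveDimension_ne_top_iff M).1 hM
  rw [projectiveDimension_le_iff]
  exact findim_le n h M (d + 1) hd

end Vale.Agent.Results.P176.A0_DeloopingBound
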